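import Vale.Agent.P233.Gig.Defs

/-! Facts on the radial potentials `zr p s₀ C₀ t = min (d_p²/(2(t+s₀)) - C₀, 0)`:
Lipschitz bounds, membership in the Sobolev class, the bound `Γ(z,z) ≤ (d_p/(t+s₀))²` on `{z < 0}`
and `0` elsewhere, and the Hamilton-Jacobi identity. -/

set_option linter.all false

open MeasureTheory Filter Topology Set
open scoped ENNReal NNReal InnerProductSpace

universe u

namespace Vale.Agent.P233.H599

open Vale.Agent.P233 Vale.Agent.P233.Met

variable {M : Type u} [MetricSpace M]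

/-- squared slope of `zr` -/
noncomputable def Gz (p : M) (s₀ C₀ t : ℝ) (x : M) : ℝ :=
  open Classical in if dist p x ^ 2 < 2 * C₀ * (t + s₀) then (dist p x / (t + s₀)) ^ 2 else 0

section elem

variable {p : M} {s₀ C₀ t s : ℝ}

theorem zr_nonpos (p : M) (s₀ C₀ t : ℝ) (x : M) : zr p s₀ C₀ t x ≤ 0 := min_le_right _ _

theorem zr_ge (hτ : 0 < t + s₀) (hC : 0 ≤ C₀) (x : M) : -C₀ ≤ zr p s₀ C₀ t x := by
  unfold zr
  refine le_min ?_ (by linarith)
  have : 0 ≤ dist p x ^ 2 / (2 * (t + s₀)) := by positivity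
  linarith

theorem abs_zr_le (hτ : 0 < t + s₀) (hC : 0 ≤ C₀) (x : M) : |zr p s₀ C₀ t x| ≤ C₀ :=
  abs_le.2 ⟨zr_ge hτ hC x, (zr_nonpos _ _ _ _ _).trans hC⟩

theorem zr_eq_zero (hτ : 0 < t + s₀) {x : M} (h : 2 * C₀ * (t + s₀) ≤ dist p x ^ 2) :
    zr p s₀ C₀ t x = 0 := by
  unfold zr
  refine min_eq_right ?_
  rw [sub_nonneg, le_div_iff₀ (by positivity)]
  linarith

theorem zr_eq (hτ : 0 < t + s₀) {x : M} (h : dist p x ^ 2 < 2 * C₀ * (t + s₀)) :
    zr p s₀ C₀ t x = dist p x ^ 2 / (2 * (t + s₀)) - C₀ := by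
  unfold zr
  refine min_eq_left ?_
  rw [sub_nonpos, div_le_iff₀ (by positivity)]
  linarith

theorem zr_neg_iff (hτ : 0 < t + s₀) {x : M} :
    zr p s₀ C₀ t x < 0 ↔ dist p x ^ 2 < 2 * C₀ * (t + s₀) := by
  constructor
  · intro h
    by_contra h2
    rw [zr_eq_zero hτ (not_lt.1 h2)] at h
    exact lt_irrefl _ h
  · intro h
    rw [zr_eq hτ h, sub_neg, div_lt_iff₀ (by positivity)]
    linarith

theorem zr_continuous (p : M) (s₀ C₀ t : ℝ) : Continuous (zr p s₀ C₀ t) := by
  unfold zr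
  fun_prop

theorem zr_zero_outside (hτ : 0 < t + s₀) (hC : 0 ≤ C₀) {R : ℝ} (hR : Real.sqrt (2 * C₀ * (t + s₀)) ≤ R)
    {x : M} (hx : x ∉ Metric.ball p R) : zr p s₀ C₀ t x = 0 := by
  refine zr_eq_zero hτ ?_
  rw [Metric.mem_ball, not_lt, dist_comm] at hx
  have h1 : Real.sqrt (2 * C₀ * (t + s₀)) ≤ dist p x := hR.trans hx
  have h2 := Real.sqrt_nonneg (2 * C₀ * (t + s₀))
  calc 2 * C₀ * (t + s₀) = Real.sqrt (2 * C₀ * (t + s₀)) ^ 2 := (Real.sq_sqrt (by positivity)).symm
    _ ≤ dist p x ^ 2 := by gcongr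

/-- pointwise Lipschitz estimate -/
theorem zr_sub_le (hτ : 0 < t + s₀) (x y : M) :
    |zr p s₀ C₀ t y - zr p s₀ C₀ t x| ≤
      (dist p y + dist p x) / (2 * (t + s₀)) * dist y x := by
  unfold zr
  have h1 : |min (dist p y ^ 2 / (2 * (t + s₀)) - C₀) 0 - min (dist p x ^ 2 / (2 * (t + s₀)) - C₀) 0|
      ≤ |(dist p y ^ 2 / (2 * (t + s₀)) - C₀) - (dist p x ^ 2 / (2 * (t + s₀)) - C₀)| := by
    have := abs_min_sub_min_le_max (dist p y ^ 2 / (2 * (t + s₀)) - C₀) 0
      (dist p x ^ 2 / (2 * (t + s₀)) - C₀) 0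
    simpa using this
  refine h1.trans ?_
  have h2 : (dist p y ^ 2 / (2 * (t + s₀)) - C₀) - (dist p x ^ 2 / (2 * (t + s₀)) - C₀)
      = (dist p y + dist p x) / (2 * (t + s₀)) * (dist p y - dist p x) := by
    field_simp
    ring
  rw [h2, abs_mul, abs_of_nonneg (by positivity)]
  have h3 : |dist p y - dist p x| ≤ dist y x := by
    rw [dist_comm p y, dist_comm p x]
    exact abs_dist_sub_le y x p
  gcongr

theorem zr_lip (hτ : 0 < t + s₀) (hC : 0 ≤ C₀) :
    LipschitzWith (Real.toNNReal (Real.sqrt (2 * C₀ / (t + s₀)))) (zr p s₀ C₀ t) := by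
  set τ := t + s₀ with hτd
  have key : ∀ x : M, zr p s₀ C₀ t x = min (dist p x) (Real.sqrt (2 * C₀ * τ)) ^ 2 / (2 * τ) - C₀ := by
    intro x
    by_cases h : dist p x ^ 2 < 2 * C₀ * τ
    · rw [zr_eq hτ h, min_eq_left (Real.le_sqrt_of_sq_le h.le)]
    · rw [not_lt] at h
      rw [zr_eq_zero hτ h, min_eq_right (Real.sqrt_le_iff.2 ⟨dist_nonneg, h⟩),
        Real.sq_sqrt (by positivity)]
      field_simp
      ring
  refine LipschitzWith.of_dist_le_mul fun x y => ?_
  rw [Real.coe_toNNReal _ (Real.sqrt_nonneg _), Real.dist_eq, key, key]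
  set ρ := Real.sqrt (2 * C₀ * τ) with hρ
  have hρ0 : 0 ≤ ρ := Real.sqrt_nonneg _
  have e1 : min (dist p x) ρ ^ 2 / (2 * τ) - C₀ - (min (dist p y) ρ ^ 2 / (2 * τ) - C₀)
      = (min (dist p x) ρ + min (dist p y) ρ) / (2 * τ) * (min (dist p x) ρ - min (dist p y) ρ) := by
    field_simp
    ring
  have a1 : 0 ≤ min (dist p x) ρ := le_min dist_nonneg hρ0
  have a2 : 0 ≤ min (dist p y) ρ := le_min dist_nonneg hρ0
  rw [e1, abs_mul, abs_of_nonneg (by positivity)]
  have h3 : |min (dist p x) ρ - min (dist p y) ρ| ≤ dist x y := by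
    have h4 := abs_min_sub_min_le_max (dist p x) ρ (dist p y) ρ
    have h5 : |dist p x - dist p y| ≤ dist x y := by
      rw [dist_comm p y, dist_comm p x]
      exact abs_dist_sub_le x y p
    refine h4.trans ?_
    simpa using h5
  have h6 : (min (dist p x) ρ + min (dist p y) ρ) / (2 * τ) ≤ Real.sqrt (2 * C₀ / τ) := by
    have h7 : (min (dist p x) ρ + min (dist p y) ρ) / (2 * τ) ≤ ρ / τ := by
      rw [div_le_div_iff₀ (by positivity) hτ]
      have b1 : min (dist p x) ρ ≤ ρ := min_le_right _ _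
      have b2 : min (dist p y) ρ ≤ ρ := min_le_right _ _
      nlinarith
    refine h7.trans (le_of_eq ?_)
    have h8 : 2 * C₀ / τ = 2 * C₀ * τ / τ ^ 2 := by field_simp
    rw [h8, Real.sqrt_div' _ (by positivity), Real.sqrt_sq hτ.le]
  gcongr

/-- Lipschitz constant uniform in `t ≥ 0` -/
theorem zr_lip' (hs : 0 < s₀) (ht : 0 ≤ t) (hC : 0 ≤ C₀) :
    LipschitzWith (Real.toNNReal (Real.sqrt (2 * C₀ / s₀))) (zr p s₀ C₀ t) := by
  refine (zr_lip (by linarith) hC).weaken ?_
  refine Real.toNNReal_le_toNNReal (Real.sqrt_le_sqrt ?_)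
  gcongr
  linarith

theorem Gz_nonneg (p : M) (s₀ C₀ t : ℝ) (x : M) : 0 ≤ Gz p s₀ C₀ t x := by
  unfold Gz
  split_ifs <;> positivity

theorem Gz_le (hs : 0 < s₀) (ht : 0 ≤ t) (hC : 0 ≤ C₀) (x : M) : Gz p s₀ C₀ t x ≤ 2 * C₀ / s₀ := by
  have hτ : 0 < t + s₀ := by linarith
  unfold Gz
  split_ifs with h
  · rw [div_pow, div_le_div_iff₀ (by positivity) hs]
    have h1 : dist p x ^ 2 * s₀ ≤ 2 * C₀ * (t + s₀) * s₀ := by gcongr
    have h2 : 2 * C₀ * (t + s₀) * s₀ ≤ 2 * C₀ * (t + s₀) ^ 2 := by nlinarith [mul_nonneg hC hτ.le]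
    linarith
  · positivity

theorem Gz_measurable [MeasurableSpace M] [BorelSpace M] [SecondCountableTopology M] (p : M) (s₀ C₀ : ℝ) :
    Measurable fun q : ℝ × M => Gz p s₀ C₀ q.1 q.2 := by
  unfold Gz
  refine Measurable.ite ?_ (by fun_prop) measurable_const
  exact measurableSet_lt (by fun_prop) (by fun_prop)

theorem zr_anti (hs : 0 < s₀) (h0 : 0 ≤ s) (hst : s ≤ t) (x : M) :
    zr p s₀ C₀ t x ≤ zr p s₀ C₀ s x := by
  unfold zr
  have : dist p x ^ 2 / (2 * (t + s₀)) ≤ dist p x ^ 2 / (2 * (s + s₀)) := by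
    gcongr
  exact min_le_min (by linarith) le_rfl

/-- the derivative of `d²/(2(t+s₀))` -/
theorem zr_ftc (d : ℝ) (hs : 0 < s₀) (h0 : 0 ≤ s) (hst : s ≤ t) :
    d ^ 2 / (2 * (t + s₀)) - d ^ 2 / (2 * (s + s₀)) = -(1 / 2) * ∫ r in s..t, (d / (r + s₀)) ^ 2 := by
  have h1 : ∫ r in s..t, (d / (r + s₀)) ^ 2 = (-(d ^ 2) / (t + s₀)) - (-(d ^ 2) / (s + s₀)) := by
    refine intervalIntegral.integral_eq_sub_of_hasDerivAt (f := fun r => -(d ^ 2) / (r + s₀)) ?_ ?_
    · intro r hr
      rw [uIcc_of_le hst] at hr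
      have hr0 : r + s₀ ≠ 0 := by have := hr.1; linarith
      have h2 : HasDerivAt (fun r : ℝ => r + s₀) 1 r := (hasDerivAt_id r).add_const s₀
      have h3 := (h2.inv hr0).const_mul (-(d ^ 2))
      have h4 : (fun r : ℝ => -(d ^ 2) / (r + s₀)) = fun r => -(d ^ 2) * (r + s₀)⁻¹ := by
        funext r; rw [div_eq_mul_inv]
      rw [h4]
      refine h3.congr_deriv ?_
      field_simp
    · refine ContinuousOn.intervalIntegrable ?_
      rw [uIcc_of_le hst]
      refine ContinuousOn.pow (ContinuousOn.div continuousOn_const (by fun_prop) ?_) 2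
      intro r hr
      have := hr.1
      have : 0 < r + s₀ := by linarith
      exact this.ne'
  rw [h1]
  have e1 : (s + s₀) ≠ 0 := by have : 0 < s + s₀ := by linarith
                               exact this.ne'
  have e2 : (t + s₀) ≠ 0 := by have : 0 < t + s₀ := by linarith
                               exact this.ne'
  field_simp
  ring

theorem Gz_intervalIntegrable (p : M) (hs : 0 < s₀) (hC : 0 ≤ C₀) (h0 : 0 ≤ s) (hst : s ≤ t) (x : M) :
    IntervalIntegrable (fun r => Gz p s₀ C₀ r x) volume s t := by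
  have hm : Measurable fun r => Gz p s₀ C₀ r x := by
    unfold Gz
    refine Measurable.ite ?_ (by fun_prop) measurable_const
    exact measurableSet_lt (by fun_prop) (by fun_prop)
  rw [intervalIntegrable_iff_integrableOn_Ioc_of_le hst]
  refine Measure.integrableOn_of_bounded (M := 2 * C₀ / s₀) (by simp) hm.aestronglyMeasurable ?_
  filter_upwards [ae_restrict_mem measurableSet_Ioc] with r hr
  rw [Real.norm_eq_abs, abs_of_nonneg (Gz_nonneg _ _ _ _ _)]
  exact Gz_le hs (h0.trans hr.1.le) hC x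

/-- Hamilton-Jacobi identity, at every point -/
theorem zr_hj (hs : 0 < s₀) (hC : 0 ≤ C₀) (h0 : 0 ≤ s) (hst : s ≤ t) (x : M) :
    zr p s₀ C₀ t x - zr p s₀ C₀ s x = -(1 / 2) * ∫ r in s..t, Gz p s₀ C₀ r x := by
  set d := dist p x with hd
  have ht0 : 0 ≤ t := h0.trans hst
  by_cases h1 : 2 * C₀ * (t + s₀) ≤ d ^ 2
  · -- always outside
    have h2 : 2 * C₀ * (s + s₀) ≤ d ^ 2 := by
      refine le_trans ?_ h1
      gcongr
    rw [zr_eq_zero (by linarith) h1, zr_eq_zero (by linarith) h2]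
    have h3 : ∫ r in s..t, Gz p s₀ C₀ r x = ∫ r in s..t, (0 : ℝ) := by
      refine intervalIntegral.integral_congr fun r hr => ?_
      rw [uIcc_of_le hst] at hr
      simp only [Gz]
      rw [if_neg]
      rw [not_lt]
      refine le_trans ?_ h1
      have := hr.2
      gcongr
    rw [h3]
    simp
  · rw [not_le] at h1
    have hC' : 0 < C₀ := by
      by_contra hc
      have : C₀ = 0 := le_antisymm (not_lt.1 hc) hC
      rw [this] at h1
      have := sq_nonneg d
      linarith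
    -- the time of entrance
    set r₀ := max s (d ^ 2 / (2 * C₀) - s₀) with hr₀
    have hr1 : s ≤ r₀ := le_max_left _ _
    have hr2 : r₀ ≤ t := by
      refine max_le hst ?_
      rw [sub_le_iff_le_add, div_le_iff₀ (by positivity)]
      linarith
    have e1 : ∫ r in s..r₀, Gz p s₀ C₀ r x = 0 := by
      have : ∫ r in s..r₀, Gz p s₀ C₀ r x = ∫ r in s..r₀, (0 : ℝ) := by
        refine intervalIntegral.integral_congr_ae ?_
        have hne : ∀ᵐ r : ℝ, r ≠ r₀ := by
          have := MeasureTheory.Measure.ae_ne (volume : Measure ℝ) r₀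
          exact this
        filter_upwards [hne] with r hne hr
        rw [uIoc_of_le hr1] at hr
        simp only [Gz]
        rw [if_neg]
        rw [not_lt]
        have hlt : r < r₀ := lt_of_le_of_ne hr.2 hne
        have h5 : r < d ^ 2 / (2 * C₀) - s₀ := by
          rcases lt_max_iff.1 hlt with h | h
          · exact absurd h (not_lt.2 hr.1.le)
          · exact h
        have h6 : r + s₀ < d ^ 2 / (2 * C₀) := by linarith
        rw [lt_div_iff₀ (by positivity)] at h6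
        linarith
      rw [this]; simp
    have e2 : ∫ r in r₀..t, Gz p s₀ C₀ r x = ∫ r in r₀..t, (d / (r + s₀)) ^ 2 := by
      refine intervalIntegral.integral_congr_ae ?_
      filter_upwards with r hr
      rw [uIoc_of_le hr2] at hr
      simp only [Gz]
      rw [if_pos]
      have h5 : d ^ 2 / (2 * C₀) - s₀ < r := (le_max_right _ _).trans_lt hr.1
      rw [sub_lt_iff_lt_add, div_lt_iff₀ (by positivity)] at h5
      linarith
    have e3 := zr_ftc d hs (h0.trans hr1) hr2
    have e4 : ∫ r in s..t, Gz p s₀ C₀ r x = ∫ r in r₀..t, (d / (r + s₀)) ^ 2 := by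
      rw [← intervalIntegral.integral_add_adjacent_intervals
        (Gz_intervalIntegrable p hs hC h0 hr1 x)
        (Gz_intervalIntegrable p hs hC (h0.trans hr1) hr2 x), e1, e2, zero_add]
    rw [e4, ← e3]
    rw [zr_eq (by linarith) h1]
    by_cases h7 : d ^ 2 < 2 * C₀ * (s + s₀)
    · rw [zr_eq (by linarith) h7]
      have h8 : r₀ = s := by
        refine max_eq_left ?_
        rw [sub_le_iff_le_add, div_le_iff₀ (by positivity)]
        linarith
      rw [h8]
      ring
    · rw [not_lt] at h7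
      rw [zr_eq_zero (by linarith) h7]
      have h8 : r₀ = d ^ 2 / (2 * C₀) - s₀ := by
        refine max_eq_right ?_
        rw [le_sub_iff_add_le, le_div_iff₀ (by positivity)]
        linarith
      have hd0 : 0 < d ^ 2 := lt_of_lt_of_le (by positivity) h7
      have hd1 : d ≠ 0 := fun h => by rw [h] at hd0; simp at hd0
      have h9 : d ^ 2 / (2 * (r₀ + s₀)) = C₀ := by
        rw [h8, sub_add_cancel]
        field_simp
      rw [h9]
      ring

end elem

section sob

variable [MeasurableSpace M] [BorelSpace M] {m : Measure M} {p : M} {s₀ C₀ t s : ℝ}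

theorem zr_lipBd (hτ : 0 < t + s₀) (x : M) :
    LipBd (zr p s₀ C₀ t) x (dist p x / (t + s₀)) := by
  intro c hc
  have h1 : Tendsto (fun y => (dist p y + dist p x) / (2 * (t + s₀))) (𝓝 x)
      (𝓝 ((dist p x + dist p x) / (2 * (t + s₀)))) := by
    have : Continuous fun y => (dist p y + dist p x) / (2 * (t + s₀)) := by fun_prop
    exact this.tendsto x
  have e : (dist p x + dist p x) / (2 * (t + s₀)) = dist p x / (t + s₀) := by
    field_simp
    ring
  rw [e] at h1
  filter_upwards [h1.eventually_lt_const hc] with y hy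
  refine (zr_sub_le hτ x y).trans ?_
  gcongr

theorem zr_good (hfin : ∀ (x : M) (r : ℝ), m (Metric.ball x r) < ∞) (hτ : 0 < t + s₀) (hC : 0 ≤ C₀) :
    Good m (zr p s₀ C₀ t)
      ((Metric.ball p (Real.sqrt (2 * C₀ * (t + s₀)) + 1)).indicator fun x => dist p x / (t + s₀)) := by
  set R := Real.sqrt (2 * C₀ * (t + s₀)) with hR
  have hg := good_of_bounded_support hfin (zr_lip (p := p) hτ hC) (x₀ := p) (R := R)
    (fun x hx => zr_zero_outside hτ hC hR.le hx)
  have hbm : MeasurableSet (Metric.ball p (R + 1)) := Metric.isOpen_ball.measurableSet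
  refine Good.mk' hg.1 hg.2.1 ?_ ?_
  · have h1 : MemLp ((Metric.ball p (R + 1)).indicator fun _ => (R + 1) / (t + s₀)) 2 m :=
      memLp_indicator_const 2 hbm _ (Or.inr (hfin p (R + 1)).ne)
    refine h1.mono ?_ ?_
    · refine (Measurable.indicator ?_ hbm).aestronglyMeasurable
      have : Continuous fun x : M => dist p x / (t + s₀) := by fun_prop
      exact this.measurable
    · filter_upwards with x
      by_cases hx : x ∈ Metric.ball p (R + 1)
      · rw [indicator_of_mem hx, indicator_of_mem hx, Real.norm_eq_abs, Real.norm_eq_abs,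
          abs_of_nonneg (by positivity), abs_of_nonneg (by positivity)]
        have := (Metric.mem_ball.1 hx).le
        rw [dist_comm] at this
        gcongr
      · rw [indicator_of_notMem hx, indicator_of_notMem hx]
  · filter_upwards with x
    by_cases hx : x ∈ Metric.ball p (R + 1)
    · rw [indicator_of_mem hx]
      exact ⟨by positivity, zr_lipBd hτ x⟩
    · rw [indicator_of_notMem hx]
      refine ⟨le_rfl, lipBd_zero_of_eventually ?_⟩
      have hx2 : R < dist x p := by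
        rw [Metric.mem_ball, not_lt] at hx; linarith
      have h1 : ∀ᶠ y in 𝓝 x, R < dist y p :=
        (continuous_id.dist continuous_const).continuousAt.eventually_const_lt hx2
      filter_upwards [h1] with y hy
      rw [zr_zero_outside hτ hC hR.le (by rw [Metric.mem_ball, not_lt]; exact hy.le),
        zr_zero_outside hτ hC hR.le (by rw [Metric.mem_ball, not_lt]; exact hx2.le)]

theorem cl_ae {f : M → ℝ} (h : AEStronglyMeasurable f m) : ⇑(cl m f) =ᵐ[m] f := by
  unfold cl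
  rw [dif_pos h]
  exact AEEqFun.coeFn_mk f h

theorem zr_cl_ae (p : M) (s₀ C₀ t : ℝ) [SecondCountableTopology M] :
    ⇑(cl m (zr p s₀ C₀ t)) =ᵐ[m] zr p s₀ C₀ t :=
  cl_ae (zr_continuous p s₀ C₀ t).aestronglyMeasurable

variable [SecondCountableTopology M]

theorem zr_W12 (hfin : ∀ (x : M) (r : ℝ), m (Metric.ball x r) < ∞) (hτ : 0 < t + s₀) (hC : 0 ≤ C₀) :
    W12 m (zr p s₀ C₀ t) := ⟨_, (zr_good hfin hτ hC).rSlope⟩

theorem zr_memW (hfin : ∀ (x : M) (r : ℝ), m (Metric.ball x r) < ∞) (hτ : 0 < t + s₀) (hC : 0 ≤ C₀) :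
    cl m (zr p s₀ C₀ t) ∈ (sob m).W :=
  mem_sob_iff.2 ((zr_W12 hfin hτ hC).congr (zr_cl_ae p s₀ C₀ t).symm)

theorem zr_memA (hfin : ∀ (x : M) (r : ℝ), m (Metric.ball x r) < ∞) (hτ : 0 < t + s₀) (hC : 0 ≤ C₀) :
    cl m (zr p s₀ C₀ t) ∈ (sob m).A := by
  refine ⟨zr_memW hfin hτ hC, mem_top_iff.2 ⟨C₀, ?_⟩⟩
  filter_upwards [zr_cl_ae (m := m) p s₀ C₀ t] with x hx
  rw [hx]
  exact abs_zr_le hτ hC x

/-- `Γ(z_t,z_t) ≤ (d_p/(t+s₀))²` on `{z_t < 0}`, and `= 0` elsewhere -/
theorem zr_Γ_le (hfin : ∀ (x : M) (r : ℝ), m (Metric.ball x r) < ∞) (hτ : 0 < t + s₀) (hC : 0 ≤ C₀) :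
    ∀ᵐ x ∂m, (sob m).Γ (cl m (zr p s₀ C₀ t)) (cl m (zr p s₀ C₀ t)) x ≤ Gz p s₀ C₀ t x := by
  have hW := zr_memW (p := p) hfin hτ hC
  have hW' := zr_W12 (p := p) hfin hτ hC
  filter_upwards [sob_Γ_self_ae hW, mslope_congr (zr_cl_ae p s₀ C₀ t) (mem_sob_iff.1 hW),
    (zr_good (p := p) hfin hτ hC).rSlope.mslope_le, mslope_eq_zero_of_eq_const hW' 0,
    hW'.mslope_nonneg] with x h1 h2 h3 h4 h5
  rw [h1, h2]
  unfold Gz
  split_ifs with h
  · have h6 : mslope m (zr p s₀ C₀ t) x ≤ dist p x / (t + s₀) := by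
      refine h3.trans ?_
      by_cases hx : x ∈ Metric.ball p (Real.sqrt (2 * C₀ * (t + s₀)) + 1)
      · rw [indicator_of_mem hx]
      · rw [indicator_of_notMem hx]
        positivity
    gcongr
  · rw [h4 (zr_eq_zero hτ (not_lt.1 h))]
    norm_num

end sob

end Vale.Agent.P233.H599
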