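import Vale.Agent.P233.H599.Low
import Vale.Agent.P233.Gig.IfA

/-! The fields `mem`, `conv` and `lap` of `PA.ULim`. -/

set_option linter.all false

open MeasureTheory Filter Topology Set
open scoped ENNReal NNReal InnerProductSpace

universe u

namespace Vale.Agent.P233.H599

open Vale.Agent.P233 Vale.Agent.P233.Met

/-! ### weak convergence in `W` -/

section weak

variable {M : Type u} [MeasurableSpace M] {m : Measure M} {C : Calc m}

theorem weakW {ι : Type*} {F : Filter ι} (hD : IsDir C) {v : ι → M →ₘ[m] ℝ} {v0 g : M →ₘ[m] ℝ}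
    (hv : ∀ᶠ n in F, v n ∈ C.W) (hv0 : v0 ∈ C.W) {B : ℝ} (hE : ∀ᶠ n in F, I (C.Γ (v n) (v n)) ≤ B)
    (h2 : Tendsto (fun n => I ((v n - v0) ^ 2)) F (𝓝 0)) (hg : g ∈ C.W) :
    Tendsto (fun n => I (C.Γ (v n) g)) F (𝓝 (I (C.Γ v0 g))) := by
  set B' : ℝ := 2 * |B| + 2 * I (C.Γ v0 v0) + 1 with hB'
  have hE0 : 0 ≤ I (C.Γ v0 v0) := hD.E_nonneg hv0
  have hB'0 : 0 < B' := by positivity
  rw [Metric.tendsto_nhds]
  intro δ hδ
  -- the approximation of `g`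
  have hη : 0 < (δ / (2 * Real.sqrt B')) ^ 2 := by positivity
  obtain ⟨k, hk⟩ := ((hD.J_tendsto_W hg).eventually_lt_const hη).exists
  have hl : (0 : ℝ) < ((k : ℝ) + 1)⁻¹ := by positivity
  have hg2 := hD.memLp g hg
  set g' := C.J ((k : ℝ) + 1)⁻¹ g with hg'
  set h' := (((k : ℝ) + 1)⁻¹)⁻¹ • (g' - g) with hh'
  have hlap : C.IsLap g' h' := hD.J_isLap hl hg2
  have hg'W : g' ∈ C.W := hlap.1
  have hsub : g - g' ∈ C.W := hD.sub_mem hg hg'W
  have hEs : I (C.Γ (g - g') (g - g')) < (δ / (2 * Real.sqrt B')) ^ 2 := by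
    refine lt_of_le_of_lt ?_ hk
    rw [hD.nrm2_sub_comm hg'W hg]
    exact hD.E_le_nrm2 (g - g')
  have hlim : Tendsto (fun n => Real.sqrt (I (h' ^ 2)) * Real.sqrt (I ((v n - v0) ^ 2))) F (𝓝 0) := by
    have h3 := ((Real.continuous_sqrt.tendsto 0).comp h2).const_mul (Real.sqrt (I (h' ^ 2)))
    rw [Real.sqrt_zero, mul_zero] at h3
    exact h3
  filter_upwards [hv, hE, hlim.eventually_lt_const (half_pos hδ)] with n hvn hEn h4
  have hw : v n - v0 ∈ C.W := hD.sub_mem hvn hv0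
  have hw2 := hD.memLp _ hw
  have hEw : I (C.Γ (v n - v0) (v n - v0)) ≤ B' := by
    have h5 := hD.E_add_le hvn (hD.neg_mem hv0)
    rw [← sub_eq_add_neg, hD.E_neg hv0] at h5
    have := le_abs_self B
    linarith
  rw [Real.dist_eq]
  have e1 : I (C.Γ (v n) g) - I (C.Γ v0 g) = I (C.Γ (v n - v0) g) := by
    rw [hD.Γ_sub_left hvn hv0 hg, I_sub (hD.Γ_mem1 hvn hg) (hD.Γ_mem1 hv0 hg)]
  have e2 : I (C.Γ (v n - v0) g) = I (C.Γ (v n - v0) g') + I (C.Γ (v n - v0) (g - g')) := by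
    rw [hD.Γ_sub_right hw hg hg'W, I_sub (hD.Γ_mem1 hw hg) (hD.Γ_mem1 hw hg'W)]
    ring
  have e3 : I (C.Γ (v n - v0) g') = -I (h' * (v n - v0)) := by
    rw [hD.symm _ hw _ hg'W]
    exact hlap.2.2 _ hw
  have e4 : |I (C.Γ (v n - v0) g')| ≤ Real.sqrt (I (h' ^ 2)) * Real.sqrt (I ((v n - v0) ^ 2)) := by
    rw [e3, abs_neg]
    exact I_abs_le hlap.2.1 hw2
  have e5 : |I (C.Γ (v n - v0) (g - g'))| ≤ δ / 2 := by
    refine (hD.E_abs_le hw hsub).trans ?_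
    have h6 : Real.sqrt (I (C.Γ (g - g') (g - g'))) ≤ δ / (2 * Real.sqrt B') := by
      rw [Real.sqrt_le_left (by positivity)]
      exact hEs.le
    have h7 : Real.sqrt (I (C.Γ (v n - v0) (v n - v0))) ≤ Real.sqrt B' := Real.sqrt_le_sqrt hEw
    calc _ ≤ Real.sqrt B' * (δ / (2 * Real.sqrt B')) := by gcongr
      _ = δ / 2 := by
        have : Real.sqrt B' ≠ 0 := (Real.sqrt_pos.2 hB'0).ne'
        field_simp
  rw [e1, e2]
  refine lt_of_le_of_lt (abs_add_le _ _) ?_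
  linarith

end weak

section metric

variable {M : Type u} [MetricSpace M] [SecondCountableTopology M] [MeasurableSpace M] [BorelSpace M]
  {m : Measure M} {K N : ℝ} {P : ℝ → (M →ₘ[m] ℝ) → (M →ₘ[m] ℝ)} {p : M} {s₀ C₀ : ℝ}

/-- Lipschitz representatives -/
theorem lip_rep (hS : Std m K N) {f : M →ₘ[m] ℝ} (hf : f ∈ (sob m).W) {L : ℝ≥0} (hL : 0 < L)
    (h : ∀ᵐ x ∂m, (sob m).Γ f f x ≤ (L : ℝ) ^ 2) : ∃ U : M → ℝ, LipschitzWith L U ∧ ⇑f =ᵐ[m] U := by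
  have hD := (std_gamma hS).toIsDir
  have hL' : (0 : ℝ) < L := hL
  set g := (L : ℝ)⁻¹ • f with hg
  have hgW : g ∈ (sob m).W := hD.smul_mem _ _ hf
  have hΓ : (sob m).Γ g g = ((L : ℝ)⁻¹ * (L : ℝ)⁻¹) • (sob m).Γ f f := by
    rw [hg, hD.smul_left _ _ hf _ hgW, hD.Γ_smul_right _ hf hf, smul_smul]
  have hs : slope g ≤ 1 := by
    rw [le_iff_ae]
    filter_upwards [h, slope_ae hgW, sob_Γ_self_ae hgW, (mem_sob_iff.1 hgW).mslope_nonneg,
      smul_ae ((sob m).Γ f f) ((L : ℝ)⁻¹ * (L : ℝ)⁻¹), one_ae (M := M) (m := m)] with x a1 a2 a3 a4 a5 a6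
    rw [a2, a6]
    rw [hΓ, a5] at a3
    have h1 : (L : ℝ)⁻¹ * (L : ℝ)⁻¹ * (sob m).Γ f f x ≤ 1 := by
      calc _ ≤ (L : ℝ)⁻¹ * (L : ℝ)⁻¹ * (L : ℝ) ^ 2 := by gcongr
        _ = 1 := by field_simp
    rw [a3] at h1
    nlinarith
  obtain ⟨V, hV, hgV⟩ := hS.rcd.sobolev_to_lipschitz g hgW hs
  refine ⟨fun x => L * V x, ?_, ?_⟩
  · refine LipschitzWith.of_dist_le_mul fun x y => ?_
    rw [Real.dist_eq, ← mul_sub, abs_mul, abs_of_pos hL']
    have := hV.dist_le_mul x y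
    rw [Real.dist_eq, NNReal.coe_one, one_mul] at this
    gcongr
  · filter_upwards [hgV, smul_ae f (L : ℝ)⁻¹] with x a1 a2
    rw [a2] at a1
    rw [← a1]
    field_simp

theorem ulim_mem (hS : Std m K N) (p : M) (hs : 0 < s₀) (hC : 0 ≤ C₀) :
    ∀ t ∈ Icc (0 : ℝ) 1, cl m (zr p s₀ C₀ t) ∈ (sob m).A ∧
      MemLp ((sob m).Γ (cl m (zr p s₀ C₀ t)) (cl m (zr p s₀ C₀ t))) ∞ m := by
  intro t ht
  have hτ : 0 < t + s₀ := by linarith [ht.1]
  have hD := (std_gamma hS).toIsDir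
  refine ⟨zr_memA hS.hfin hτ hC, mem_top_iff.2 ⟨2 * C₀ / s₀, ?_⟩⟩
  filter_upwards [zr_Γ_le (p := p) hS.hfin hτ hC, hD.Γ_nonneg_ae (zr_memW (p := p) hS.hfin hτ hC)]
    with x h1 h2
  rw [abs_of_nonneg h2]
  exact h1.trans (Gz_le hs ht.1 hC x)

theorem en_pos (n : ℕ) : 0 < PA.en n := by
  unfold PA.en
  positivity

theorem en_tendsto : Tendsto PA.en atTop (𝓝 0) := by
  unfold PA.en
  exact tendsto_inv_succ

/-- pointwise convergence almost everywhere, at every time -/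
theorem ulim_ae (hS : Std m K N) (hP : Heat (sob m) K P) (p : M) (hs : 0 < s₀) (hC : 0 ≤ C₀)
    {l : ℕ → M →ₘ[m] ℝ} {φ u : ℕ → ℝ → M →ₘ[m] ℝ}
    (hF : ∀ᶠ n in atTop, Fam (sob m) P (PA.en n) (cl m (zr p s₀ C₀ 0)) (l n) (φ n) (u n))
    {D : ℝ} (hlip : ∀ᶠ n in atTop, ∀ t ∈ Icc (0 : ℝ) 1, ∀ᵐ x ∂m, (sob m).Γ (u n t) (u n t) x ≤ D ^ 2)
    {δ : ℕ → ℝ} (hδ : Tendsto δ atTop (𝓝 0))
    (hup : ∀ᶠ n in atTop, ∀ t ∈ Icc (0 : ℝ) 1, ∀ᵐ x ∂m, u n t x ≤ zr p s₀ C₀ t x + δ n) :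
    ∀ t ∈ Icc (0 : ℝ) 1, ∀ᵐ x ∂m, Tendsto (fun n => u n t x) atTop (𝓝 (zr p s₀ C₀ t x)) := by
  intro t ht
  set L : ℝ≥0 := Real.toNNReal (|D| + 1) with hL
  have hLc : (L : ℝ) = |D| + 1 := Real.coe_toNNReal _ (by positivity)
  have hL0 : 0 < L := by
    rw [hL, Real.toNNReal_pos]
    positivity
  have hex : ∀ᶠ n in atTop, ∃ U : M → ℝ, LipschitzWith L U ∧ ⇑(u n t) =ᵐ[m] U := by
    filter_upwards [hF, hlip] with n h1 h2
    refine lip_rep hS ?_ hL0 ?_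
    · exact ((std_gamma hS).test_A (h1.pair.u_mem t ht).1).1
    · filter_upwards [h2 t ht] with x hx
      refine hx.trans ?_
      rw [hLc, ← sq_abs D]
      gcongr
      linarith
  obtain ⟨n₀, hn₀⟩ := (hex.and (hF.and hup)).exists_forall_of_atTop
  have hch : ∀ n, ∃ U : M → ℝ, n₀ ≤ n → LipschitzWith L U ∧ ⇑(u n t) =ᵐ[m] U := by
    intro n
    by_cases h : n₀ ≤ n
    · obtain ⟨U, hU⟩ := (hn₀ n h).1
      exact ⟨U, fun _ => hU⟩
    · exact ⟨fun _ => 0, fun h' => absurd h' h⟩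
  choose U hU using hch
  have hae1 : ∀ᵐ x ∂m, ∀ n, n₀ ≤ n → u n t x = U n x := by
    rw [ae_all_iff]
    intro n
    by_cases h : n₀ ≤ n
    · filter_upwards [(hU n h).2] with x hx _
      exact hx
    · filter_upwards with x h'
      exact absurd h' h
  have hae2 : ∀ᵐ x ∂m, ∀ n, n₀ ≤ n → u n t x ≤ zr p s₀ C₀ t x + δ n := by
    rw [ae_all_iff]
    intro n
    by_cases h : n₀ ≤ n
    · filter_upwards [(hn₀ n h).2.2 t ht] with x hx _
      exact hx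
    · filter_upwards with x h'
      exact absurd h' h
  filter_upwards [hae1, hae2] with x h1 h2
  rw [Metric.tendsto_atTop]
  intro η hη
  obtain ⟨ε₀, hε₀, hlow⟩ := fam_low hS hP p hs hC L x (half_pos hη)
  have e1 : ∀ᶠ n in atTop, PA.en n < ε₀ := en_tendsto.eventually_lt_const hε₀
  have e2 : ∀ᶠ n in atTop, δ n < η / 2 := hδ.eventually_lt_const (half_pos hη)
  obtain ⟨n₁, hn₁⟩ := (e1.and (e2.and (eventually_ge_atTop n₀))).exists_forall_of_atTop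
  refine ⟨n₁, fun n hn => ?_⟩
  obtain ⟨q1, q2, q3⟩ := hn₁ n hn
  have h3 := hlow (PA.en n) (en_pos n) q1 (l n) (φ n) (u n) (hn₀ n q3).2.1 t ht (U n)
    (hU n q3).1 (hU n q3).2
  have h4 := h2 n q3
  rw [← h1 n q3] at h3
  rw [Real.dist_eq, abs_lt]
  constructor <;> linarith

/-- **the field `conv`** -/
theorem ulim_conv (hS : Std m K N) (hP : Heat (sob m) K P) (p : M) (hs : 0 < s₀) (hC : 0 ≤ C₀)
    {l : ℕ → M →ₘ[m] ℝ} {φ u : ℕ → ℝ → M →ₘ[m] ℝ}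
    (hF : ∀ᶠ n in atTop, Fam (sob m) P (PA.en n) (cl m (zr p s₀ C₀ 0)) (l n) (φ n) (u n))
    {D : ℝ} {D' : ℝ → ℝ} (hU : ∀ᶠ n in atTop, PA.LevU (sob m) K N (PA.en n) C₀ D D' (u n))
    (hup : ∃ δ : ℕ → ℝ, Tendsto δ atTop (𝓝 0) ∧ ∀ᶠ n in atTop, ∀ t ∈ Icc (0 : ℝ) 1,
      ∀ᵐ x ∂m, u n t x ≤ zr p s₀ C₀ t x + δ n)
    (htail : ∃ R₀ : ℝ, ∀ t ∈ Icc (0 : ℝ) 1,
      Tendsto (fun n => ∫ x in (Metric.ball p R₀)ᶜ, (u n t x) ^ 2 ∂m) atTop (𝓝 0)) :
    ∀ t ∈ Icc (0 : ℝ) 1, Tendsto (fun n => I ((u n t - cl m (zr p s₀ C₀ t)) ^ 2)) atTop (𝓝 0) := by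
  intro t ht
  obtain ⟨δ, hδ, hup⟩ := hup
  obtain ⟨R₀, htail⟩ := htail
  have hD := (std_gamma hS).toIsDir
  have hτ : 0 < t + s₀ := by linarith [ht.1]
  have hae := ulim_ae hS hP p hs hC hF (hU.mono fun n h => h.lip) hδ hup t ht
  set z := zr p s₀ C₀ t with hz
  set R := max R₀ (Real.sqrt (2 * C₀ * (t + s₀))) with hR
  set B := Metric.ball p R with hB
  have hBm : MeasurableSet B := Metric.isOpen_ball.measurableSet
  have hBfin : m B < ∞ := hS.hfin p R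
  have hz2 : MemLp (cl m z) 2 m := hD.memLp _ (zr_memW hS.hfin hτ hC)
  have hu2 : ∀ᶠ n in atTop, MemLp (u n t) 2 m := by
    filter_upwards [hF] with n h1
    exact hD.memLp _ ((std_gamma hS).test_A (h1.pair.u_mem t ht).1).1
  -- inside
  haveI : IsFiniteMeasure (m.restrict B) := ⟨by rw [Measure.restrict_apply_univ]; exact hBfin⟩
  obtain ⟨n₀, hn₀⟩ := (hU.and hu2).exists_forall_of_atTop
  have h1 : Tendsto (fun n => ∫ x in B, (u (n + n₀) t x - z x) ^ 2 ∂m) atTop (𝓝 0) := by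
    have h2 : Tendsto (fun n => ∫ x in B, (u (n + n₀) t x - z x) ^ 2 ∂m) atTop
        (𝓝 (∫ x in B, (0 : ℝ) ∂m)) := by
      refine tendsto_integral_of_dominated_convergence (fun _ => C₀ ^ 2) ?_ (integrable_const _) ?_ ?_
      · intro n
        exact (((AEEqFun.aestronglyMeasurable _).sub
          (zr_continuous p s₀ C₀ t).aestronglyMeasurable).pow 2).restrict
      · intro n
        have hn := (hn₀ (n + n₀) (Nat.le_add_left _ _)).1
        refine ae_restrict_of_ae ?_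
        filter_upwards [hn.lo t ht, hn.hi t ht] with x a1 a2
        rw [Real.norm_eq_abs, abs_of_nonneg (sq_nonneg _)]
        have b1 := zr_ge (p := p) hτ hC x
        have b2 := zr_nonpos p s₀ C₀ t x
        refine sq_le_sq' ?_ ?_ <;> linarith
      · refine ae_restrict_of_ae ?_
        filter_upwards [hae] with x hx
        have h3 := ((hx.comp (tendsto_add_atTop_nat n₀)).sub_const (z x)).pow 2
        simpa using h3
    simpa using h2
  have h1' : Tendsto (fun n => ∫ x in B, (u n t x - z x) ^ 2 ∂m) atTop (𝓝 0) :=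
    (tendsto_add_atTop_iff_nat (f := fun n => ∫ x in B, (u n t x - z x) ^ 2 ∂m) n₀).1 h1
  -- outside
  have h4 : Tendsto (fun n => ∫ x in (Metric.ball p R₀)ᶜ, (u n t x) ^ 2 ∂m) atTop (𝓝 0) := htail t ht
  have h5 : Tendsto (fun n => (∫ x in B, (u n t x - z x) ^ 2 ∂m) +
      ∫ x in (Metric.ball p R₀)ᶜ, (u n t x) ^ 2 ∂m) atTop (𝓝 0) := by
    simpa using h1'.add h4
  refine tendsto_of_tendsto_of_tendsto_of_le_of_le' tendsto_const_nhds h5 ?_ ?_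
  · filter_upwards with n
    exact I_sq_nonneg _
  · filter_upwards [hu2] with n hn
    have hd2 : MemLp (u n t - cl m z : M →ₘ[m] ℝ) 2 m := mem_sub hn hz2
    have e1 : I ((u n t - cl m z) ^ 2) = ∫ x, (u n t x - z x) ^ 2 ∂m := by
      unfold I
      refine integral_congr_ae ?_
      filter_upwards [sq_ae (u n t - cl m z), sub_ae (u n t) (cl m z), zr_cl_ae (m := m) p s₀ C₀ t]
        with x a1 a2 a3
      rw [a1, a2, a3]
    have hint : Integrable (fun x => (u n t x - z x) ^ 2) m := by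
      have := int_of_mem (mem_sq hd2)
      refine this.congr ?_
      filter_upwards [sq_ae (u n t - cl m z), sub_ae (u n t) (cl m z), zr_cl_ae (m := m) p s₀ C₀ t]
        with x a1 a2 a3
      rw [a1, a2, a3]
    rw [e1, ← integral_add_compl hBm hint]
    gcongr
    have e2 : ∫ x in Bᶜ, (u n t x - z x) ^ 2 ∂m = ∫ x in Bᶜ, (u n t x) ^ 2 ∂m := by
      refine setIntegral_congr_fun hBm.compl fun x hx => ?_
      have : z x = 0 := zr_zero_outside hτ hC (le_max_right _ _) hx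
      simp only [this, sub_zero]
    rw [e2]
    refine setIntegral_mono_set ?_ ?_ ?_
    · exact hn.integrable_sq.integrableOn
    · filter_upwards with x
      exact sq_nonneg _
    · refine (HasSubset.Subset.eventuallyLE ?_)
      exact compl_subset_compl.2 (Metric.ball_subset_ball (le_max_left _ _))

/-- **the field `lap`** -/
theorem ulim_lap (hS : Std m K N) (p : M) (hs : 0 < s₀) (hC : 0 ≤ C₀)
    {u : ℕ → ℝ → M →ₘ[m] ℝ}
    (hu : ∀ᶠ n in atTop, ∀ t ∈ Icc (0 : ℝ) 1, u n t ∈ (sob m).TestI)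
    {D : ℝ} {D' : ℝ → ℝ} (hU : ∀ᶠ n in atTop, PA.LevU (sob m) K N (PA.en n) C₀ D D' (u n))
    (hconv : ∀ t ∈ Icc (0 : ℝ) 1,
      Tendsto (fun n => I ((u n t - cl m (zr p s₀ C₀ t)) ^ 2)) atTop (𝓝 0)) :
    ∀ t ∈ Ioc (0 : ℝ) 1, ∀ g ∈ (sob m).W, 0 ≤ g → MemLp g 1 m →
      -I ((sob m).Γ (cl m (zr p s₀ C₀ t)) g) ≤ (N / t + PA.c1 K 0 C₀) * I g := by
  intro t ht g hg hg0 hg1
  have ht' : t ∈ Icc (0 : ℝ) 1 := ⟨ht.1.le, ht.2⟩
  have hG := std_gamma hS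
  have hD := hG.toIsDir
  have hτ : 0 < t + s₀ := by linarith [ht.1]
  have hw : Tendsto (fun n => I ((sob m).Γ (u n t) g)) atTop
      (𝓝 (I ((sob m).Γ (cl m (zr p s₀ C₀ t)) g))) := by
    refine weakW hD (B := D' t) ?_ (zr_memW hS.hfin hτ hC) ?_ (hconv t ht') hg
    · filter_upwards [hu] with n hn
      exact (hG.test_A (hn t ht').1).1
    · filter_upwards [hU] with n hn
      exact hn.en t ht t ⟨le_rfl, ht.2⟩
  have hc : Tendsto (fun n => (N / t + PA.c1 K (PA.en n) C₀) * I g) atTop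
      (𝓝 ((N / t + PA.c1 K 0 C₀) * I g)) := by
    have h1 : Tendsto (fun n => PA.c1 K (PA.en n) C₀) atTop (𝓝 (PA.c1 K 0 C₀)) := by
      have : Continuous fun ε => PA.c1 K ε C₀ := by unfold PA.c1; fun_prop
      exact (this.tendsto 0).comp en_tendsto
    exact (h1.const_add _).mul_const _
  refine le_of_tendsto_of_tendsto hw.neg hc ?_
  filter_upwards [hu, hU] with n h1 h2
  have hT := (h1 t ht').1
  have hlap := hG.test_isLap hT
  have hg2 := hD.memLp g hg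
  have e : I ((sob m).Γ (u n t) g) = -I ((sob m).lap (u n t) * g) := hlap.2.2 g hg
  rw [e, neg_neg, ← I_smul]
  refine I_mono (mem_mul_22 hlap.2.1 hg2) (mem_smul _ hg1) ?_
  rw [le_iff_ae]
  filter_upwards [h2.lap t ht, mul_ae ((sob m).lap (u n t)) g, nonneg_iff_ae.1 hg0,
    smul_ae g (N / t + PA.c1 K (PA.en n) C₀)] with x a1 a2 a3 a4
  rw [a2, a4]
  gcongr

end metric

end Vale.Agent.P233.H599
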