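import Vale.Agent.P233.H599.LowAux
import Vale.Agent.P233.H71.Dav3
import Vale.Agent.P233.H675.JSup

/-! A5(iv): the lower bound `u^ε_t ≥ z_t - o(1)` for the radial potentials, in integral form
(uniform in `t ∈ [0,1]`) and at every point. -/

set_option linter.all false

open MeasureTheory Filter Topology Set
open scoped ENNReal NNReal InnerProductSpace

universe u

namespace Vale.Agent.P233.H599

open Vale.Agent.P233 Vale.Agent.P233.Met

section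

variable {M : Type u} [MetricSpace M] [SecondCountableTopology M] [MeasurableSpace M] [BorelSpace M]
  {m : Measure M} {K : ℝ} {P : ℝ → (M →ₘ[m] ℝ) → (M →ₘ[m] ℝ)} {p : M} {s₀ C₀ : ℝ}

theorem std_gamma {K N : ℝ} (h : Std m K N) : IsGamma (sob m) :=
  isGamma_sob h.hfin h.rcd.quadratic h.rcd.sobolev_to_lipschitz

theorem std_sf {K N : ℝ} (h : Std m K N) : SigmaFinite m := sigmaFinite_of_ball h.hfin

/-- one-sided derivative of `zr` in time -/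
theorem zr_right (hs : 0 < s₀) (hC : 0 ≤ C₀) {t : ℝ} (ht : 0 ≤ t) (x : M) {η : ℝ} (hη : 0 < η) :
    ∀ᶠ s in 𝓝[>] t, zr p s₀ C₀ s x - zr p s₀ C₀ t x ≤ (s - t) * (-(1 / 2) * Gz p s₀ C₀ t x + η) := by
  have hτ : 0 < t + s₀ := by linarith
  by_cases h : dist p x ^ 2 < 2 * C₀ * (t + s₀)
  · set d := dist p x with hd
    have h1 : HasDerivAt (fun r : ℝ => d ^ 2 / (2 * (r + s₀))) (-(1 / 2) * (d / (t + s₀)) ^ 2) t := by
      have h2 : HasDerivAt (fun r : ℝ => r + s₀) 1 t := (hasDerivAt_id t).add_const s₀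
      have h3 := (h2.inv hτ.ne').const_mul (d ^ 2 / 2)
      have h4 : (fun r : ℝ => d ^ 2 / (2 * (r + s₀))) = fun r => d ^ 2 / 2 * (r + s₀)⁻¹ := by
        funext r
        rw [div_mul_eq_div_div, div_eq_mul_inv]
      rw [h4]
      refine h3.congr_deriv ?_
      field_simp
    have h5 := (hasDerivAt_iff_tendsto_slope.1 h1).mono_left
      (nhdsWithin_mono t (fun y (hy : y ∈ Ioi t) => ne_of_gt hy))
    have h6 : ∀ᶠ s in 𝓝[>] t, _root_.slope (fun r : ℝ => d ^ 2 / (2 * (r + s₀))) t s <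
        -(1 / 2) * (d / (t + s₀)) ^ 2 + η := h5.eventually_lt_const (by linarith)
    filter_upwards [h6, self_mem_nhdsWithin] with s hs1 hs2
    have hst : 0 < s - t := sub_pos.2 hs2
    rw [slope_def_field, div_lt_iff₀ hst] at hs1
    have h7 : zr p s₀ C₀ s x ≤ d ^ 2 / (2 * (s + s₀)) - C₀ := min_le_left _ _
    rw [zr_eq hτ h]
    have h8 : Gz p s₀ C₀ t x = (d / (t + s₀)) ^ 2 := by
      unfold Gz
      rw [if_pos h]
    rw [h8]
    rw [mul_comm (s - t)]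
    linarith
  · rw [not_lt] at h
    rw [zr_eq_zero hτ h]
    have h8 : Gz p s₀ C₀ t x = 0 := by
      unfold Gz
      rw [if_neg (not_lt.2 h)]
    rw [h8]
    filter_upwards [self_mem_nhdsWithin] with s hs2
    have hst : 0 < s - t := sub_pos.2 hs2
    have := zr_nonpos p s₀ C₀ s x
    have h9 : 0 ≤ (s - t) * (-(1 / 2) * 0 + η) := by
      rw [mul_zero, zero_add]
      positivity
    linarith

theorem zr_time_lip (hs : 0 < s₀) (hC : 0 ≤ C₀) {s t : ℝ} (h0 : 0 ≤ s) (hst : s ≤ t) (x : M) :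
    |zr p s₀ C₀ t x - zr p s₀ C₀ s x| ≤ C₀ / s₀ * (t - s) := by
  rw [zr_hj hs hC h0 hst x, abs_mul, abs_neg, abs_of_pos (by norm_num : (0:ℝ) < 1 / 2)]
  have h1 : ‖∫ r in s..t, Gz p s₀ C₀ r x‖ ≤ 2 * C₀ / s₀ * |t - s| := by
    refine intervalIntegral.norm_integral_le_of_norm_le_const fun r hr => ?_
    rw [uIoc_of_le hst] at hr
    rw [Real.norm_eq_abs, abs_of_nonneg (Gz_nonneg _ _ _ _ _)]
    exact Gz_le hs (h0.trans hr.1.le) hC x
  rw [Real.norm_eq_abs, abs_of_nonneg (sub_nonneg.2 hst)] at h1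
  calc 1 / 2 * |∫ r in s..t, Gz p s₀ C₀ r x| ≤ 1 / 2 * (2 * C₀ / s₀ * (t - s)) := by gcongr
    _ = _ := by ring

/-- Davies' estimate with the radial weight -/
theorem zr_davies (hfin : ∀ (x : M) (r : ℝ), m (Metric.ball x r) < ∞) (hD : IsDir (sob m))
    (hP : Heat (sob m) K P) (hs : 0 < s₀) (hC : 0 ≤ C₀) {ε : ℝ} (hε : 0 < ε) {f : M →ₘ[m] ℝ}
    (hf : MemLp f 2 m) {T : ℝ} (hT : 0 ≤ T) :
    ∫ x, P (ε * (T - 0) / 2) f x ^ 2 * Real.exp (2 * zr p s₀ C₀ T x / ε) ∂m ≤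
      ∫ x, f x ^ 2 * Real.exp (2 * zr p s₀ C₀ 0 x / ε) ∂m := by
  refine H71.heat_davies_zero hD hP (t0 := 0) (T := T) (B := C₀) (Lt := C₀ / s₀)
    (z := fun t => zr p s₀ C₀ t) hε hf (fun t => (zr_continuous p s₀ C₀ t).measurable.aemeasurable)
    hT ?_ ?_ ?_
  · filter_upwards with x t ht
    exact abs_zr_le (by linarith [ht.1]) hC x
  · filter_upwards with x t ht s hs'
    rcases le_total s t with h | h
    · rw [abs_of_nonneg (sub_nonneg.2 h)]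
      exact zr_time_lip hs hC hs'.1 h x
    · rw [abs_sub_comm, abs_sub_comm t s, abs_of_nonneg (sub_nonneg.2 h)]
      exact zr_time_lip hs hC ht.1 h x
  · intro t ht
    have hτ : 0 < t + s₀ := by linarith [ht.1]
    refine ⟨0, cl m (zr p s₀ C₀ t), zr_memA hfin hτ hC, ?_, ?_, ?_⟩
    · refine mem_top_iff.2 ⟨2 * C₀ / s₀, ?_⟩
      filter_upwards [zr_Γ_le (p := p) hfin hτ hC, hD.Γ_nonneg_ae (zr_memW (p := p) hfin hτ hC)]
        with x h1 h2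
      rw [abs_of_nonneg h2]
      exact h1.trans (Gz_le hs ht.1.le hC x)
    · filter_upwards [zr_cl_ae (m := m) p s₀ C₀ t] with x hx
      rw [hx, zero_add]
    · filter_upwards [zr_Γ_le (p := p) hfin hτ hC] with x hx η hη
      filter_upwards [zr_right (p := p) hs hC ht.1.le x hη, self_mem_nhdsWithin] with s h1 h2
      have hst : 0 < s - t := sub_pos.2 h2
      refine h1.trans ?_
      refine mul_le_mul_of_nonneg_left ?_ hst.le
      linarith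

/-- the initial datum of `Fam` is uniformly close to `a` -/
theorem ini_close {N : ℝ} (hS : Std m K N) {a : M →ₘ[m] ℝ} (ha : a ∈ (sob m).A) {L : ℝ} (hL : 0 < L)
    (hG : ∀ᵐ x ∂m, (sob m).Γ a a x ≤ L ^ 2) {ε : ℝ} (hε : 0 < ε) (hε2 : 2 * ε ^ 2 * |K| ≤ 1) :
    ∀ᵐ x ∂m, |(sob m).J (ε ^ 2) ((sob m).J (ε ^ 2) a) x - a x| ≤ 6 * √N * L * ε := by
  haveI := std_sf hS
  have hC := std_gamma hS
  have hD := hC.toIsDir
  have hl : 0 < ε ^ 2 := by positivity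
  have ha2 := hD.memLp a ha.1
  have hJ2 := hD.J_mem2 hl ha2
  have h1 := hC.J_sub_le_sqrt hS.hN hS.rcd.bochner ha hL hG hl hε2
  rw [Real.sqrt_sq hε.le] at h1
  have h2 := hD.J_bdd hl (mem_sub hJ2 ha2) (K := 3 * √N * L * ε) (by
    filter_upwards [h1, sub_ae ((sob m).J (ε ^ 2) a) a] with x a1 a2
    rw [a2]
    exact a1)
  rw [hD.J_sub hl hJ2 ha2] at h2
  filter_upwards [h1, h2, sub_ae ((sob m).J (ε ^ 2) ((sob m).J (ε ^ 2) a)) ((sob m).J (ε ^ 2) a)]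
    with x a1 a2 a3
  rw [a3] at a2
  have e : (sob m).J (ε ^ 2) ((sob m).J (ε ^ 2) a) x - a x =
      ((sob m).J (ε ^ 2) ((sob m).J (ε ^ 2) a) x - (sob m).J (ε ^ 2) a x)
        + ((sob m).J (ε ^ 2) a x - a x) := by ring
  rw [e]
  refine (abs_add_le _ _).trans ?_
  linarith

/-- **A5(iv), integral form**, uniform in `t ∈ [0,1]`. -/
theorem fam_int (hfin : ∀ (x : M) (r : ℝ), m (Metric.ball x r) < ∞) (hD : IsDir (sob m))
    (hP : Heat (sob m) K P) (hs : 0 < s₀) (hC : 0 ≤ C₀) {ε : ℝ} {l : M →ₘ[m] ℝ}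
    {φ u : ℝ → M →ₘ[m] ℝ} (hF : Fam (sob m) P ε (cl m (zr p s₀ C₀ 0)) l φ u) {η : ℝ} (hη : 0 ≤ η)
    (hcl : ∀ᵐ x ∂m, |u 0 x - cl m (zr p s₀ C₀ 0) x| ≤ η) {t : ℝ} (ht : t ∈ Icc (0:ℝ) 1) :
    Integrable (fun x => (ex (-(ε⁻¹ • u t)) - 1 : M →ₘ[m] ℝ) x ^ 2 *
      Real.exp (2 * zr p s₀ C₀ t x / ε)) m ∧
    ∫ x, (ex (-(ε⁻¹ • u t)) - 1 : M →ₘ[m] ℝ) x ^ 2 * Real.exp (2 * zr p s₀ C₀ t x / ε) ∂m ≤
      ε⁻¹ ^ 2 * Real.exp (2 * η / ε) * I (cl m (zr p s₀ C₀ 0) ^ 2) := by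
  have hε := hF.pair.hε
  have hl : 0 < ε ^ 2 := by positivity
  have hτ0 : 0 < 0 + s₀ := by linarith
  have haW := zr_memW (p := p) hfin hτ0 hC
  have ha2 := hD.memLp _ haW
  have hJ2 := hD.J_mem2 hl ha2
  have hu2 : MemLp (u 0) 2 m := by
    rw [hF.init]
    exact hD.J_mem2 hl hJ2
  have huI : I (u 0 ^ 2) ≤ I (cl m (zr p s₀ C₀ 0) ^ 2) := by
    rw [hF.init]
    exact (hD.J_sq_le hl hJ2).trans (hD.J_sq_le hl ha2)
  have h0 := init_bound (zr_cl_ae (m := m) p s₀ C₀ 0) (zr_nonpos p s₀ C₀ 0)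
    (zr_continuous p s₀ C₀ 0).measurable hu2 hε hη hcl huI
  have hg0 : MemLp (ex (-(ε⁻¹ • u 0)) - 1 : M →ₘ[m] ℝ) 2 m := by
    have h1 := hF.pair.g_mem 0 ⟨le_rfl, zero_le_one⟩
    exact hD.memLp _ h1.1.2.choose_spec.1.1
  have h1 := zr_davies (p := p) hfin hD hP hs hC hε hg0 ht.1
  rw [← hF.pair.g_eq t ht] at h1
  refine ⟨?_, h1.trans h0.2⟩
  have hgt : MemLp (ex (-(ε⁻¹ • u t)) - 1 : M →ₘ[m] ℝ) 2 m := by
    have h1 := hF.pair.g_mem t ht
    exact hD.memLp _ h1.1.2.choose_spec.1.1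
  have h2 : Integrable (fun x => (ex (-(ε⁻¹ • u t)) - 1 : M →ₘ[m] ℝ) x ^ 2) m := hgt.integrable_sq
  refine h2.mono' ?_ ?_
  · refine ((AEEqFun.aestronglyMeasurable _).pow 2).mul ?_
    have := zr_continuous p s₀ C₀ t
    refine Continuous.aestronglyMeasurable ?_
    fun_prop
  · filter_upwards with x
    rw [Real.norm_eq_abs, abs_of_nonneg (by positivity)]
    have h3 : Real.exp (2 * zr p s₀ C₀ t x / ε) ≤ 1 := by
      rw [Real.exp_le_one_iff]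
      have := zr_nonpos p s₀ C₀ t x
      exact div_nonpos_of_nonpos_of_nonneg (by linarith) hε.le
    exact mul_le_of_le_one_right (sq_nonneg _) h3

/-- the set `{u_t ≤ z_t - δ}` is exponentially small -/
theorem fam_meas (hfin : ∀ (x : M) (r : ℝ), m (Metric.ball x r) < ∞) (hD : IsDir (sob m))
    (hP : Heat (sob m) K P) (hs : 0 < s₀) (hC : 0 ≤ C₀) {ε : ℝ} {l : M →ₘ[m] ℝ}
    {φ u : ℝ → M →ₘ[m] ℝ} (hF : Fam (sob m) P ε (cl m (zr p s₀ C₀ 0)) l φ u) {η : ℝ} (hη : 0 ≤ η)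
    (hcl : ∀ᵐ x ∂m, |u 0 x - cl m (zr p s₀ C₀ 0) x| ≤ η) {t : ℝ} (ht : t ∈ Icc (0:ℝ) 1)
    {δ : ℝ} (h2 : 2 ≤ Real.exp (δ / ε)) :
    m {x | u t x ≤ zr p s₀ C₀ t x - δ} ≤ ENNReal.ofReal (4 * Real.exp (-(2 * δ / ε)) *
      (ε⁻¹ ^ 2 * Real.exp (2 * η / ε) * I (cl m (zr p s₀ C₀ 0) ^ 2))) := by
  obtain ⟨hI, hB⟩ := fam_int hfin hD hP hs hC hF hη hcl ht
  exact cheb_bound (zr_nonpos p s₀ C₀ t) (zr_continuous p s₀ C₀ t).measurable hF.pair.hε h2 hI hB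

/-- **A5(iv), pointwise form**, uniform in `t ∈ [0,1]`, for the family with the datum of `Fam`. -/
theorem fam_low {N : ℝ} (hS : Std m K N) (hP : Heat (sob m) K P) (p : M) (hs : 0 < s₀) (hC : 0 ≤ C₀)
    (L : ℝ≥0) (x : M) {δ : ℝ} (hδ : 0 < δ) :
    ∃ ε₀ > 0, ∀ ε, 0 < ε → ε < ε₀ → ∀ (l : M →ₘ[m] ℝ) (φ u : ℝ → M →ₘ[m] ℝ),
      Fam (sob m) P ε (cl m (zr p s₀ C₀ 0)) l φ u → ∀ t ∈ Icc (0:ℝ) 1, ∀ U : M → ℝ,
        LipschitzWith L U → ⇑(u t) =ᵐ[m] U → zr p s₀ C₀ t x - δ ≤ U x := by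
  haveI := hS.full
  have hC' := std_gamma hS
  have hD := hC'.toIsDir
  have hfin := hS.hfin
  have hτ0 : 0 < 0 + s₀ := by linarith
  set a := cl m (zr p s₀ C₀ 0) with ha
  have haA := zr_memA (p := p) hfin hτ0 hC
  set Lz : ℝ≥0 := Real.toNNReal (Real.sqrt (2 * C₀ / s₀)) with hLz
  set L0 : ℝ := Real.sqrt (2 * C₀ / s₀) + 1 with hL0
  have hL0p : 0 < L0 := by positivity
  have hG : ∀ᵐ x ∂m, (sob m).Γ a a x ≤ L0 ^ 2 := by
    filter_upwards [zr_Γ_le (p := p) hfin hτ0 hC] with x hx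
    refine hx.trans ((Gz_le hs le_rfl hC x).trans ?_)
    have h1 := Real.sqrt_nonneg (2 * C₀ / s₀)
    have h2 : 2 * C₀ / s₀ = Real.sqrt (2 * C₀ / s₀) ^ 2 := (Real.sq_sqrt (by positivity)).symm
    rw [h2, hL0]
    gcongr
    linarith
  set c := 6 * √N * L0 with hc
  have hc0 : 0 ≤ c := by positivity
  set δ' := δ / 3 with hδ'
  have hδ'0 : 0 < δ' := by positivity
  -- the radius
  set r := δ' / (L + Lz + 1) with hr
  have hr0 : 0 < r := by positivity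
  have hrl : ((L : ℝ) + Lz) * r ≤ δ' := by
    rw [hr, mul_div_assoc', div_le_iff₀ (by positivity)]
    nlinarith
  have hball : 0 < m (Metric.ball x r) := Metric.measure_ball_pos m x hr0
  -- the limit
  have hlim : Tendsto (fun ε : ℝ => ENNReal.ofReal (4 * Real.exp (-(2 * (2 * δ') / ε)) *
      (ε⁻¹ ^ 2 * Real.exp (2 * (c * ε) / ε) * I (a ^ 2)))) (𝓝[>] 0) (𝓝 0) := by
    have h1 := ((tendsto_exp_div (c := 2 * (2 * δ')) (by positivity)).const_mul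
      (4 * Real.exp (2 * c) * I (a ^ 2)))
    rw [mul_zero] at h1
    have h2 : Tendsto (fun ε : ℝ => 4 * Real.exp (-(2 * (2 * δ') / ε)) *
      (ε⁻¹ ^ 2 * Real.exp (2 * (c * ε) / ε) * I (a ^ 2))) (𝓝[>] 0) (𝓝 0) := by
      refine h1.congr' ?_
      filter_upwards [self_mem_nhdsWithin] with ε hε
      have hε' : (0:ℝ) < ε := hε
      have e : 2 * (c * ε) / ε = 2 * c := by field_simp
      rw [e]
      ring
    have h3 := ENNReal.tendsto_ofReal h2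
    rwa [ENNReal.ofReal_zero] at h3
  have hev1 := hlim.eventually_lt_const hball
  have hev2 : ∀ᶠ ε : ℝ in 𝓝[>] 0, 2 ≤ Real.exp (2 * δ' / ε) := by
    have h1 : Tendsto (fun ε : ℝ => ε⁻¹) (𝓝[>] 0) atTop := tendsto_inv_nhdsGT_zero
    have h3 : Tendsto (fun y : ℝ => 2 * δ' * y) atTop atTop :=
      tendsto_id.const_mul_atTop (by positivity)
    have h4 := (Real.tendsto_exp_atTop.comp (h3.comp h1)).eventually_ge_atTop 2
    filter_upwards [h4] with ε hε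
    simpa [div_eq_mul_inv] using hε
  have hev3 : ∀ᶠ ε : ℝ in 𝓝[>] 0, 2 * ε ^ 2 * |K| ≤ 1 := by
    have h1 : Tendsto (fun ε : ℝ => 2 * ε ^ 2 * |K|) (𝓝[>] 0) (𝓝 (2 * 0 ^ 2 * |K|)) := by
      have : Continuous fun ε : ℝ => 2 * ε ^ 2 * |K| := by fun_prop
      exact this.continuousWithinAt
    have e : (2 : ℝ) * 0 ^ 2 * |K| = 0 := by ring
    rw [e] at h1
    exact (h1.eventually_lt_const one_pos).mono fun _ h => h.le
  have hev := (hev1.and (hev2.and hev3))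
  rw [eventually_nhdsWithin_iff, Metric.eventually_nhds_iff] at hev
  obtain ⟨ε₀, hε₀, hall⟩ := hev
  refine ⟨ε₀, hε₀, fun ε hε hεlt l φ u hF t ht U hU hUae => ?_⟩
  obtain ⟨q1, q2, q3⟩ := hall (y := ε) (by
    rw [Real.dist_eq, sub_zero, abs_of_pos hε]; exact hεlt) hε
  have hcl : ∀ᵐ x ∂m, |u 0 x - a x| ≤ c * ε := by
    rw [hF.init]
    exact ini_close hS haA hL0p hG hε q3
  have hmeas := fam_meas hfin hD hP hs hC hF (by positivity) hcl ht (δ := 2 * δ') q2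
  have hτ : 0 < t + s₀ := by linarith [ht.1]
  have h9 := le_of_meas_lt (L := L) (L' := Lz) hU (zr_lip' (p := p) hs ht.1 hC) hUae (δ := δ')
    (r := r) hrl (x := x) (hmeas.trans_lt q1)
  have e : 3 * δ' = δ := by rw [hδ']; ring
  rwa [e] at h9

end

end Vale.Agent.P233.H599
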