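import Vale.Agent.P233.H599.Radial

/-! Elementary parts of the lower bound `liminf u^ε_t ≥ z_t`: the initial value of the Davies
functional, the Chebyshev step and the passage to every point. -/

set_option linter.all false

open MeasureTheory Filter Topology Set
open scoped ENNReal NNReal InnerProductSpace

universe u

namespace Vale.Agent.P233.H599

open Vale.Agent.P233 Vale.Agent.P233.Met

section real

theorem init_pt {u z ε η : ℝ} (hε : 0 < ε) (hη : 0 ≤ η) (hz : z ≤ 0) (h : z - u ≤ η) :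
    (Real.exp (-(ε⁻¹ * u)) - 1) ^ 2 * Real.exp (2 * z / ε) ≤
      ε⁻¹ ^ 2 * Real.exp (2 * η / ε) * u ^ 2 := by
  set y := -(ε⁻¹ * u) with hy
  have hu : u ^ 2 = ε ^ 2 * y ^ 2 := by
    rw [hy]
    field_simp
  have e1 : ε⁻¹ ^ 2 * Real.exp (2 * η / ε) * u ^ 2 = y ^ 2 * Real.exp (2 * η / ε) := by
    rw [hu]
    field_simp
  rw [e1]
  by_cases h0 : 0 ≤ y
  · have h1 : Real.exp y - 1 ≤ y * Real.exp y := by
      have h2 := Real.add_one_le_exp (-y)
      have h3 : Real.exp (-y) * Real.exp y = 1 := by rw [← Real.exp_add]; simp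
      nlinarith [Real.exp_pos y]
    have h4 : 0 ≤ Real.exp y - 1 := by
      have := Real.one_le_exp h0
      linarith
    calc (Real.exp y - 1) ^ 2 * Real.exp (2 * z / ε) ≤ (y * Real.exp y) ^ 2 * Real.exp (2 * z / ε) := by
          gcongr
      _ = y ^ 2 * Real.exp (2 * (z - u) / ε) := by
          rw [mul_pow, ← Real.exp_nat_mul, mul_assoc, ← Real.exp_add]
          congr 2
          rw [hy]
          push_cast
          field_simp
          ring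
      _ ≤ y ^ 2 * Real.exp (2 * η / ε) := by gcongr
  · rw [not_le] at h0
    have h1 : 1 - Real.exp y ≤ -y := by
      have := Real.add_one_le_exp y
      linarith
    have h2 : 0 ≤ 1 - Real.exp y := by
      have := Real.exp_le_one_iff.2 h0.le
      linarith
    have h3 : (Real.exp y - 1) ^ 2 ≤ y ^ 2 := by nlinarith
    have h4 : Real.exp (2 * z / ε) ≤ Real.exp (2 * η / ε) := by
      gcongr
      linarith
    gcongr

theorem cheb_pt {u z ε δ : ℝ} (hε : 0 < ε) (hz : z ≤ 0) (h2 : 2 ≤ Real.exp (δ / ε))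
    (h : u ≤ z - δ) :
    1 ≤ 4 * Real.exp (-(2 * δ / ε)) * ((Real.exp (-(ε⁻¹ * u)) - 1) ^ 2 * Real.exp (2 * z / ε)) := by
  set g := Real.exp (-(ε⁻¹ * u)) with hg
  have h3 : Real.exp ((δ - z) / ε) ≤ g := by
    rw [hg]
    refine Real.exp_le_exp.2 ?_
    rw [div_le_iff₀ hε]
    have : -(ε⁻¹ * u) * ε = -u := by field_simp
    rw [this]
    linarith
  have h4 : Real.exp (δ / ε) ≤ Real.exp ((δ - z) / ε) := by
    gcongr
    linarith
  have h5 : 2 ≤ g := h2.trans (h4.trans h3)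
  have h6 : g / 2 ≤ g - 1 := by linarith
  have h7 : Real.exp ((δ - z) / ε) / 2 ≤ g - 1 := by linarith
  have h8 : 0 < Real.exp ((δ - z) / ε) := Real.exp_pos _
  calc (1 : ℝ) = 4 * Real.exp (-(2 * δ / ε)) * ((Real.exp ((δ - z) / ε) / 2) ^ 2 * Real.exp (2 * z / ε)) := by
        rw [div_pow, ← Real.exp_nat_mul]
        have : 4 * Real.exp (-(2 * δ / ε)) * (Real.exp ((2 : ℕ) * ((δ - z) / ε)) / 2 ^ 2 * Real.exp (2 * z / ε))
          = Real.exp (-(2 * δ / ε)) * Real.exp ((2 : ℕ) * ((δ - z) / ε)) * Real.exp (2 * z / ε) := by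
            ring
        rw [this, ← Real.exp_add, ← Real.exp_add, eq_comm, Real.exp_eq_one_iff]
        push_cast
        field_simp
        ring
    _ ≤ _ := by gcongr

/-- `ε⁻² exp(-c/ε) → 0` -/
theorem tendsto_exp_div {c : ℝ} (hc : 0 < c) :
    Tendsto (fun ε : ℝ => ε⁻¹ ^ 2 * Real.exp (-(c / ε))) (𝓝[>] 0) (𝓝 0) := by
  have h1 : Tendsto (fun ε : ℝ => ε⁻¹) (𝓝[>] 0) atTop := tendsto_inv_nhdsGT_zero
  have h2 := (Real.tendsto_pow_mul_exp_neg_atTop_nhds_zero 2)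
  have h3 : Tendsto (fun y : ℝ => c * y) atTop atTop := tendsto_id.const_mul_atTop hc
  have h4 := ((h2.comp h3).comp h1).const_mul (c⁻¹ ^ 2)
  rw [mul_zero] at h4
  refine h4.congr fun ε => ?_
  simp only [Function.comp_apply]
  rw [div_eq_mul_inv]
  field_simp

end real

section meas

variable {M : Type u} [MeasurableSpace M] {m : Measure M}

theorem ex_ae (f : M →ₘ[m] ℝ) : ⇑(ex f) =ᵐ[m] fun x => Real.exp (f x) := by
  unfold ex
  exact AEEqFun.coeFn_comp _ _ f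

/-- `g - 1` with `g = exp (-u/ε)` -/
theorem g1_ae (ε : ℝ) (u : M →ₘ[m] ℝ) :
    ∀ᵐ x ∂m, (ex (-(ε⁻¹ • u)) - 1 : M →ₘ[m] ℝ) x = Real.exp (-(ε⁻¹ * u x)) - 1 := by
  filter_upwards [sub_ae (ex (-(ε⁻¹ • u))) 1, ex_ae (-(ε⁻¹ • u)), neg_ae (ε⁻¹ • u),
    smul_ae u ε⁻¹, one_ae (M := M) (m := m)] with x h1 h2 h3 h4 h5
  rw [h1, h2, h3, h4, h5]

/-- the initial value of the Davies functional -/
theorem init_bound {a u : M →ₘ[m] ℝ} {z : M → ℝ} (hz : ⇑a =ᵐ[m] z) (hz0 : ∀ x, z x ≤ 0)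
    (hzm : Measurable z) (hu : MemLp u 2 m) {ε η : ℝ} (hε : 0 < ε) (hη : 0 ≤ η)
    (h : ∀ᵐ x ∂m, |u x - a x| ≤ η) (h2 : I (u ^ 2) ≤ I (a ^ 2)) :
    Integrable (fun x => (ex (-(ε⁻¹ • u)) - 1 : M →ₘ[m] ℝ) x ^ 2 * Real.exp (2 * z x / ε)) m ∧
    ∫ x, (ex (-(ε⁻¹ • u)) - 1 : M →ₘ[m] ℝ) x ^ 2 * Real.exp (2 * z x / ε) ∂m ≤
      ε⁻¹ ^ 2 * Real.exp (2 * η / ε) * I (a ^ 2) := by
  have hpt : ∀ᵐ x ∂m, (ex (-(ε⁻¹ • u)) - 1 : M →ₘ[m] ℝ) x ^ 2 * Real.exp (2 * z x / ε) ≤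
      ε⁻¹ ^ 2 * Real.exp (2 * η / ε) * (u ^ 2 : M →ₘ[m] ℝ) x := by
    filter_upwards [g1_ae ε u, h, hz, sq_ae u] with x h1 h2 h3 h4
    rw [h1, h4]
    refine init_pt hε hη (hz0 x) ?_
    have := (abs_le.1 h2).1
    rw [← h3]
    linarith
  have hint : Integrable (fun x => ε⁻¹ ^ 2 * Real.exp (2 * η / ε) * (u ^ 2 : M →ₘ[m] ℝ) x) m :=
    (int_of_mem (mem_sq hu)).const_mul _
  have hmeas : AEStronglyMeasurable
      (fun x => (ex (-(ε⁻¹ • u)) - 1 : M →ₘ[m] ℝ) x ^ 2 * Real.exp (2 * z x / ε)) m := by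
    refine ((AEEqFun.aestronglyMeasurable _).pow 2).mul ?_
    refine Measurable.aestronglyMeasurable ?_
    fun_prop
  have hI : Integrable (fun x => (ex (-(ε⁻¹ • u)) - 1 : M →ₘ[m] ℝ) x ^ 2 * Real.exp (2 * z x / ε)) m := by
    refine hint.mono' hmeas ?_
    filter_upwards [hpt] with x hx
    rw [Real.norm_eq_abs, abs_of_nonneg (by positivity)]
    exact hx
  refine ⟨hI, ?_⟩
  calc _ ≤ ∫ x, ε⁻¹ ^ 2 * Real.exp (2 * η / ε) * (u ^ 2 : M →ₘ[m] ℝ) x ∂m :=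
        integral_mono_ae hI hint hpt
    _ = ε⁻¹ ^ 2 * Real.exp (2 * η / ε) * I (u ^ 2) := by rw [integral_const_mul]; rfl
    _ ≤ _ := by gcongr

/-- Chebyshev: the set `{u ≤ z - δ}` is exponentially small -/
theorem cheb_bound {u : M →ₘ[m] ℝ} {z : M → ℝ} (hz0 : ∀ x, z x ≤ 0)
    (hzm : Measurable z) {ε δ B : ℝ} (hε : 0 < ε) (h2 : 2 ≤ Real.exp (δ / ε))
    (hI : Integrable (fun x => (ex (-(ε⁻¹ • u)) - 1 : M →ₘ[m] ℝ) x ^ 2 * Real.exp (2 * z x / ε)) m)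
    (hB : ∫ x, (ex (-(ε⁻¹ • u)) - 1 : M →ₘ[m] ℝ) x ^ 2 * Real.exp (2 * z x / ε) ∂m ≤ B) :
    m {x | u x ≤ z x - δ} ≤ ENNReal.ofReal (4 * Real.exp (-(2 * δ / ε)) * B) := by
  set F : M → ℝ := fun x => 4 * Real.exp (-(2 * δ / ε)) *
    ((ex (-(ε⁻¹ • u)) - 1 : M →ₘ[m] ℝ) x ^ 2 * Real.exp (2 * z x / ε)) with hF
  have hFi : Integrable F m := hI.const_mul _
  have hF0 : 0 ≤ᵐ[m] F := by
    filter_upwards with x
    simp only [hF, Pi.zero_apply]
    positivity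
  have h3 : m {x | u x ≤ z x - δ} ≤ m {x | (1 : ℝ≥0∞) ≤ ENNReal.ofReal (F x)} := by
    refine measure_mono_ae ?_
    filter_upwards [g1_ae ε u] with x hx hxs
    change (1 : ℝ≥0∞) ≤ ENNReal.ofReal (F x)
    rw [← ENNReal.ofReal_one]
    refine ENNReal.ofReal_le_ofReal ?_
    simp only [hF]
    rw [hx]
    exact cheb_pt hε (hz0 x) h2 hxs
  have h4 := mul_meas_ge_le_lintegral₀ (μ := m) (hFi.aestronglyMeasurable.aemeasurable.ennreal_ofReal) 1
  rw [one_mul] at h4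
  refine h3.trans (h4.trans ?_)
  rw [← ofReal_integral_eq_lintegral_ofReal hFi hF0]
  refine ENNReal.ofReal_le_ofReal ?_
  simp only [hF]
  rw [integral_const_mul]
  gcongr

end meas

section point

variable {M : Type u} [MetricSpace M] [MeasurableSpace M] [BorelSpace M] {m : Measure M}

/-- from almost every point to every point, by the Lipschitz bounds -/
theorem le_of_meas_lt {U z : M → ℝ} {L L' : ℝ≥0} (hU : LipschitzWith L U) (hz : LipschitzWith L' z)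
    {u : M →ₘ[m] ℝ} (hu : ⇑u =ᵐ[m] U) {δ r : ℝ} (hr : (L + L') * r ≤ δ) {x : M}
    (h : m {y | u y ≤ z y - 2 * δ} < m (Metric.ball x r)) : z x - 3 * δ ≤ U x := by
  by_contra hlt
  rw [not_le] at hlt
  have h1 : m (Metric.ball x r) ≤ m {y | u y ≤ z y - 2 * δ} := by
    refine measure_mono_ae ?_
    filter_upwards [hu] with y hy hyb
    have hd : dist y x < r := hyb
    change u y ≤ z y - 2 * δ
    rw [hy]
    have a1 := hU.dist_le_mul y x
    have a2 := hz.dist_le_mul y x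
    rw [Real.dist_eq] at a1 a2
    have b1 := (abs_le.1 a1).2
    have b2 := (abs_le.1 a2).1
    have c1 : (L : ℝ) * dist y x + L' * dist y x ≤ (L + L') * r := by
      rw [← add_mul]
      gcongr
    linarith
  exact absurd h (not_lt.2 h1)

end point

end Vale.Agent.P233.H599
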